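import Vale.Agent.P207.N3.H803.Ode

/-!
# P207, all dimensions: two-sided rates for the backward maps of the unstable leaves

`u' = g (φ_s x) u` with `χ ≤ D g(0) ≤ Λ`: near `0` the backward maps contract with every rate
`χ' < χ`, and expand distances of the inverse with at most every rate `Λ' > Λ`.
-/

open Set Filter Topology Metric
open scoped ContDiff

noncomputable section

namespace Vale.Agent.P207.H832.N4

open Vale.Agent.P207.N3 Vale.Agent.P207.N3.H803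

section up

variable {K : Type*} [TopologicalSpace K] [CompactSpace K] {E : Type} [NormedAddCommGroup E]
  [InnerProductSpace ℝ E]

/-- the one-sided Lipschitz constant of `g x` near `0`, uniformly in `x` -/
theorem exists_onesided (g : K → E → E) {ρ Λ Λ' : ℝ} (hρ : 0 < ρ) (hg : JC g (univ ×ˢ ball 0 ρ))
    (hU : ∀ x a, inner ℝ (fderiv ℝ (g x) 0 a) a ≤ Λ * ‖a‖ ^ 2) (hΛ : Λ < Λ') :
    ∃ ε, 0 < ε ∧ ε < ρ ∧ ∀ x, ∀ u ∈ closedBall (0 : E) ε, ∀ v ∈ closedBall (0 : E) ε,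
      inner ℝ (g x u - g x v) (u - v) ≤ Λ' * ‖u - v‖ ^ 2 := by
  have hneg : JC (fun x u => -g x u) ((univ : Set K) ×ˢ ball (0 : E) ρ) := hg.neg
  obtain ⟨ε, hε, hερ, h⟩ := exists_monotone (fun x u => -g x u) (χ := -Λ) (χ' := -Λ') hρ hneg
    (fun x a => by
      have h1 : fderiv ℝ (fun u => -g x u) 0 = -fderiv ℝ (g x) 0 := by
        rw [fderiv_fun_neg]
      rw [h1, neg_apply, inner_neg_left]
      linarith [hU x a]) (by linarith)
  refine ⟨ε, hε, hερ, fun x u hu v hv => ?_⟩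
  have h1 := h x u hu v hv
  have h2 : -g x u - -g x v = -(g x u - g x v) := by abel
  rw [h2, inner_neg_left] at h1
  linarith

end up

section expansion

variable {E : Type*} [NormedAddCommGroup E] [InnerProductSpace ℝ E]

/-- two solutions of a one-sided Lipschitz equation separate at most exponentially -/
theorem expansion {f : ℝ → E → E} {Λ t ε : ℝ} (ht : 0 ≤ t)
    (hm : ∀ s ∈ Icc 0 t, ∀ u ∈ closedBall (0 : E) ε, ∀ v ∈ closedBall (0 : E) ε,
      inner ℝ (f s u - f s v) (u - v) ≤ Λ * ‖u - v‖ ^ 2)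
    {u v : ℝ → E} (hu : ∀ s ∈ Icc 0 t, HasDerivWithinAt u (f s (u s)) (Icc 0 t) s)
    (hv : ∀ s ∈ Icc 0 t, HasDerivWithinAt v (f s (v s)) (Icc 0 t) s)
    (hu' : ∀ s ∈ Icc 0 t, u s ∈ closedBall (0 : E) ε)
    (hv' : ∀ s ∈ Icc 0 t, v s ∈ closedBall (0 : E) ε) :
    ∀ s ∈ Icc 0 t, ‖u t - v t‖ ≤ Real.exp (Λ * (t - s)) * ‖u s - v s‖ := by
  set h : ℝ → ℝ := fun s => ‖u s - v s‖ ^ 2 * Real.exp (-(2 * Λ * s)) with hh
  have hd : ∀ s ∈ Ioo 0 t, HasDerivAt h (2 * inner ℝ (u s - v s) (f s (u s) - f s (v s)) *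
      Real.exp (-(2 * Λ * s)) + ‖u s - v s‖ ^ 2 * (Real.exp (-(2 * Λ * s)) * (-(2 * Λ)))) s := by
    intro s hs
    have hs' := Ioo_subset_Icc_self hs
    have hn : Icc 0 t ∈ 𝓝 s := Icc_mem_nhds hs.1 hs.2
    have h1 := ((hu s hs').hasDerivAt hn).sub ((hv s hs').hasDerivAt hn)
    have h2 := h1.norm_sq
    have h3 : HasDerivAt (fun s : ℝ => Real.exp (-(2 * Λ * s)))
        (Real.exp (-(2 * Λ * s)) * (-(2 * Λ))) s := by
      have := ((hasDerivAt_id s).const_mul (2 * Λ)).neg.exp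
      simpa using this
    exact h2.mul h3
  have hc : ContinuousOn h (Icc 0 t) := by
    have h1 : ContinuousOn u (Icc 0 t) := fun s hs => (hu s hs).continuousWithinAt
    have h2 : ContinuousOn v (Icc 0 t) := fun s hs => (hv s hs).continuousWithinAt
    exact ((h1.sub h2).norm.pow 2).mul (by fun_prop)
  have hanti : AntitoneOn h (Icc 0 t) := by
    refine antitoneOn_of_deriv_nonpos (convex_Icc 0 t) hc ?_ ?_
    · intro s hs
      rw [interior_Icc] at hs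
      exact (hd s hs).differentiableAt.differentiableWithinAt
    · intro s hs
      rw [interior_Icc] at hs
      rw [(hd s hs).deriv]
      have hs' := Ioo_subset_Icc_self hs
      have := hm s hs' (u s) (hu' s hs') (v s) (hv' s hs')
      rw [real_inner_comm] at this
      have he := Real.exp_pos (-(2 * Λ * s))
      nlinarith
  intro s hs
  have h1 := hanti hs (right_mem_Icc.2 ht) hs.2
  simp only [hh] at h1
  have h2 : ‖u t - v t‖ ^ 2 ≤ (Real.exp (Λ * (t - s)) * ‖u s - v s‖) ^ 2 := by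
    have h3 : ‖u t - v t‖ ^ 2 = ‖u t - v t‖ ^ 2 * Real.exp (-(2 * Λ * t)) *
        Real.exp (2 * Λ * t) := by
      rw [mul_assoc, ← Real.exp_add]; simp
    have h4 : (Real.exp (Λ * (t - s)) * ‖u s - v s‖) ^ 2
        = ‖u s - v s‖ ^ 2 * Real.exp (-(2 * Λ * s)) * Real.exp (2 * Λ * t) := by
      rw [mul_assoc, ← Real.exp_add, mul_pow, ← Real.exp_nat_mul, mul_comm]
      congr 2
      push_cast
      ring
    rw [h3, h4]
    gcongr
  exact (abs_le_of_sq_le_sq' h2 (by positivity)).2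

end expansion

section maps

variable {X B K : Type*} [TopologicalSpace K] [CompactSpace K] {E : Type} [NormedAddCommGroup E]
  [InnerProductSpace ℝ E] [FiniteDimensional ℝ E]

/-- **the backward maps of the unstable leaves, with two-sided rates** -/
theorem exists_maps2 (φ : ℝ → X → X) (pr : X → K) (φK : ℝ → K → K)
    (hφK : Continuous fun p : ℝ × K => φK p.1 p.2) (hpr : ∀ t x, pr (φ t x) = φK t (pr x))
    (g : K → E → E) {ρ χ χ' Λ Λ' δ : ℝ} (hρ : 0 < ρ) (hδ : 0 < δ)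
    (hg : JC g (univ ×ˢ ball 0 ρ))
    (h0 : ∀ x, g x 0 = 0) (hU : ∀ x a, χ * ‖a‖ ^ 2 ≤ inner ℝ (fderiv ℝ (g x) 0 a) a)
    (hU' : ∀ x a, inner ℝ (fderiv ℝ (g x) 0 a) a ≤ Λ * ‖a‖ ^ 2)
    (hχ0 : 0 ≤ χ') (hχ : χ' < χ) (hΛ : Λ < Λ') (e' : X → E → B)
    (hode : ∀ x, ∀ t ≥ 0, ∀ u : ℝ → E,
      (∀ s ∈ Icc 0 t, HasDerivWithinAt u (g (pr (φ s x)) (u s)) (Icc 0 t) s) →
      (∀ s ∈ Icc 0 t, ‖u s‖ ≤ δ) → e' x (u 0) = e' (φ t x) (u t)) :
    ∃ ε, 0 < ε ∧ ∃ T : ℝ → X → E → E, ∀ x, ∀ t ≥ 0, ∀ u ∈ closedBall (0 : E) ε,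
      e' (φ t x) u = e' x (T t x u) ∧ ‖T t x u‖ ≤ Real.exp (-χ' * t) * ‖u‖ ∧
      (∀ v ∈ closedBall (0 : E) ε, ‖T t x u - T t x v‖ ≤ Real.exp (-χ' * t) * ‖u - v‖) ∧
      ∀ v ∈ closedBall (0 : E) ε, ‖u - v‖ ≤ Real.exp (Λ' * t) * ‖T t x u - T t x v‖ := by
  classical
  obtain ⟨ε₁, hε₁, hε₁ρ, hm₁⟩ := exists_monotone g hρ hg hU hχ
  obtain ⟨ε₃, hε₃, -, hm₃⟩ := exists_onesided g hρ hg hU' hΛ
  set ε₂ : ℝ := min (min ε₁ ε₃) δ with hε₂
  have hε₂0 : 0 < ε₂ := lt_min (lt_min hε₁ hε₃) hδ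
  have hε₂1 : ε₂ ≤ ε₁ := (min_le_left _ _).trans (min_le_left _ _)
  have hε₂3 : ε₂ ≤ ε₃ := (min_le_left _ _).trans (min_le_right _ _)
  have hm : ∀ x, ∀ u ∈ closedBall (0 : E) ε₂, ∀ v ∈ closedBall (0 : E) ε₂,
      χ' * ‖u - v‖ ^ 2 ≤ inner ℝ (g x u - g x v) (u - v) := fun x u hu v hv =>
    hm₁ x u (closedBall_subset_closedBall hε₂1 hu) v (closedBall_subset_closedBall hε₂1 hv)
  have hm' : ∀ x, ∀ u ∈ closedBall (0 : E) ε₂, ∀ v ∈ closedBall (0 : E) ε₂,
      inner ℝ (g x u - g x v) (u - v) ≤ Λ' * ‖u - v‖ ^ 2 := fun x u hu v hv =>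
    hm₃ x u (closedBall_subset_closedBall hε₂3 hu) v (closedBall_subset_closedBall hε₂3 hv)
  have hB := exists_backward φK hφK g (hε₂1.trans_lt hε₁ρ) hε₂0 hχ0 hg h0 hm
  choose! Uf hU1 hU2 hU3 using hB
  refine ⟨ε₂ / 2, by positivity, fun t x u => Uf (pr x) t u 0, ?_⟩
  intro x t ht u hu
  have h00 : (0 : ℝ) ∈ Icc 0 t := ⟨le_rfl, ht⟩
  have hle : ∀ w ∈ closedBall (0 : E) (ε₂ / 2), ∀ s ∈ Icc 0 t,
      Uf (pr x) t w s ∈ closedBall (0 : E) (ε₂ / 2) := by
    intro w hw s hs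
    rw [mem_closedBall_zero_iff] at hw ⊢
    refine (hU3 (pr x) t ht w (mem_closedBall_zero_iff.2 hw) s hs).trans ?_
    have : Real.exp (-χ' * (t - s)) ≤ 1 := by
      rw [Real.exp_le_one_iff]
      nlinarith [hs.2]
    calc Real.exp (-χ' * (t - s)) * ‖w‖ ≤ 1 * ‖w‖ := by gcongr
      _ ≤ ε₂ / 2 := by rw [one_mul]; exact hw
  refine ⟨?_, ?_, fun v hv => ?_, fun v hv => ?_⟩
  · have h1 := hode x t ht (Uf (pr x) t u) (fun s hs => by
      rw [hpr]; exact hU2 (pr x) t ht u hu s hs) (fun s hs => by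
        have := hle u hu s hs
        rw [mem_closedBall_zero_iff] at this
        have h2 : ε₂ ≤ δ := min_le_right _ _
        linarith)
    rw [hU1 (pr x) t ht u hu] at h1
    exact h1.symm
  · have h1 := hU3 (pr x) t ht u hu 0 h00
    simpa using h1
  · have h1 := contraction (f := fun s u => g (φK s (pr x)) u) (χ := χ') (ε := ε₂) ht
      (fun s _ => hm (φK s (pr x))) (hU2 (pr x) t ht u hu) (hU2 (pr x) t ht v hv)
      (fun s hs => closedBall_subset_closedBall (by linarith) (hle u hu s hs))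
      (fun s hs => closedBall_subset_closedBall (by linarith) (hle v hv s hs)) 0 h00
    rw [hU1 (pr x) t ht u hu, hU1 (pr x) t ht v hv, sub_zero] at h1
    exact h1
  · have h1 := expansion (f := fun s u => g (φK s (pr x)) u) (Λ := Λ') (ε := ε₂) ht
      (fun s _ => hm' (φK s (pr x))) (hU2 (pr x) t ht u hu) (hU2 (pr x) t ht v hv)
      (fun s hs => closedBall_subset_closedBall (by linarith) (hle u hu s hs))
      (fun s hs => closedBall_subset_closedBall (by linarith) (hle v hv s hs)) 0 h00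
    rw [hU1 (pr x) t ht u hu, hU1 (pr x) t ht v hv, sub_zero] at h1
    exact h1

end maps

section low

variable {E F : Type*} [NormedAddCommGroup E] [NormedSpace ℝ E] [NormedAddCommGroup F]
  [NormedSpace ℝ F]

/-- the derivative of an expanding map expands -/
theorem fderiv_ge {f : E → F} {u : E} {c : ℝ} (hd : DifferentiableAt ℝ f u)
    (h : ∀ᶠ v in 𝓝 u, c * ‖v - u‖ ≤ ‖f v - f u‖) (v : E) : c * ‖v‖ ≤ ‖fderiv ℝ f u v‖ := by
  have h1 : Tendsto (fun s : ℝ => u + s • v) (𝓝[>] 0) (𝓝 u) := by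
    have : ContinuousAt (fun s : ℝ => u + s • v) 0 := by fun_prop
    have h2 := this.tendsto
    simp only [zero_smul, add_zero] at h2
    exact h2.mono_left nhdsWithin_le_nhds
  have h2 : HasDerivAt (fun s : ℝ => f (u + s • v)) (fderiv ℝ f u v) 0 := by
    have h3 : HasDerivAt (fun s : ℝ => u + s • v) v 0 := by
      simpa using ((hasDerivAt_id (0 : ℝ)).smul_const v).const_add u
    have h4 : HasFDerivAt f (fderiv ℝ f u) (u + (0 : ℝ) • v) := by
      simpa using hd.hasFDerivAt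
    exact h4.comp_hasDerivAt (0 : ℝ) h3
  have h3 := h2.tendsto_slope_zero_right
  have h4 : Tendsto (fun t : ℝ => ‖t⁻¹ • (f (u + (0 + t) • v) - f (u + (0 : ℝ) • v))‖) (𝓝[>] 0)
      (𝓝 ‖fderiv ℝ f u v‖) := h3.norm
  refine ge_of_tendsto h4 ?_
  filter_upwards [h1.eventually h, self_mem_nhdsWithin] with s hs hs0
  have hs0' : (0 : ℝ) < s := hs0
  rw [zero_add, zero_smul, add_zero, norm_smul, norm_inv, Real.norm_of_nonneg hs0'.le]
  rw [add_sub_cancel_left, norm_smul, Real.norm_of_nonneg hs0'.le] at hs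
  calc c * ‖v‖ = s⁻¹ * (c * (s * ‖v‖)) := by field_simp
    _ ≤ s⁻¹ * ‖f (u + s • v) - f u‖ := by gcongr

end low

end Vale.Agent.P207.H832.N4
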