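import Vale.Agent.P207.Q.Ric3
import Mathlib.Analysis.CStarAlgebra.Matrix

/-!
# P207, all dimensions: the Riccati equation for symmetric `m × m` matrices

`N` symmetric, `N ≥ 0`, `‖N‖ ≤ Λ² - λ²`: the solution `T` on the whole line of
`T' = N - 2 Λ T + T²` is symmetric, `0 ≤ T` and `‖T‖ ≤ Λ - λ`. Hence `U = Λ - T` satisfies
`U' + U² = Λ² - N`, `λ ≤ U ≤ Λ`.
-/

open MeasureTheory Filter Topology Set
open scoped Matrix Matrix.Norms.L2Operator RealInnerProductSpace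

set_option linter.unusedSectionVars false

noncomputable section

namespace Vale.Agent.P207.H832.N4

open Vale.Agent.P207.Q.Ric

/-- `m × m` matrices -/
abbrev Mm (m : ℕ) := Matrix (Fin m) (Fin m) ℝ

variable {m : ℕ}

instance instCompleteMm : CompleteSpace (Mm m) := FiniteDimensional.complete ℝ (Mm m)

/-- the entries -/
def entM (i j : Fin m) : Mm m →L[ℝ] ℝ :=
  LinearMap.toContinuousLinearMap (Matrix.entryLinearMap ℝ ℝ i j)

@[simp] theorem entM_apply (i j : Fin m) (a : Mm m) : entM i j a = a i j := rfl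

/-- the transposition -/
def trM : Mm m →L[ℝ] Mm m :=
  LinearMap.toContinuousLinearMap (Matrix.transposeLinearEquiv (Fin m) (Fin m) ℝ ℝ).toLinearMap

@[simp] theorem trM_apply (a : Mm m) : trM a = aᵀ := rfl

/-- the quadratic form of a matrix, as a function of the matrix -/
def qM (x : Fin m → ℝ) : Mm m →L[ℝ] ℝ :=
  LinearMap.toContinuousLinearMap
    { toFun := fun a => x ⬝ᵥ (a *ᵥ x)
      map_add' := fun a b => by rw [Matrix.add_mulVec, dotProduct_add]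
      map_smul' := fun c a => by
        rw [Matrix.smul_mulVec, dotProduct_smul, RingHom.id_apply] }

@[simp] theorem qM_apply (x : Fin m → ℝ) (a : Mm m) : qM x a = x ⬝ᵥ (a *ᵥ x) := rfl

theorem dot_self_nonneg (x : Fin m → ℝ) : 0 ≤ x ⬝ᵥ x :=
  Finset.sum_nonneg fun _ _ => mul_self_nonneg _

/-- a symmetric operator is bounded by its quadratic form -/
theorem norm_le_of_quad {E : Type*} [NormedAddCommGroup E] [InnerProductSpace ℝ E]
    (T : E →L[ℝ] E) (hs : ∀ x y, ⟪T x, y⟫ = ⟪x, T y⟫) {b : ℝ} (hb : 0 ≤ b)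
    (h : ∀ x, |⟪T x, x⟫| ≤ b * ‖x‖ ^ 2) : ‖T‖ ≤ b := by
  refine ContinuousLinearMap.opNorm_le_bound _ hb fun x => ?_
  rcases eq_or_ne (T x) 0 with h0 | h0
  · rw [h0, norm_zero]; positivity
  have hx : x ≠ 0 := by
    rintro rfl; exact h0 (map_zero T)
  have hxn : 0 < ‖x‖ := norm_pos_iff.2 hx
  have hTn : 0 < ‖T x‖ := norm_pos_iff.2 h0
  set y : E := (‖x‖ / ‖T x‖) • T x with hy
  have hyn : ‖y‖ = ‖x‖ := by
    rw [hy, norm_smul, Real.norm_eq_abs, abs_of_pos (by positivity)]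
    field_simp
  have h1 : ⟪T x, y⟫ = ‖x‖ * ‖T x‖ := by
    rw [hy, inner_smul_right, real_inner_self_eq_norm_sq]
    field_simp
  have h2 : 4 * ⟪T x, y⟫ = ⟪T (x + y), x + y⟫ - ⟪T (x - y), x - y⟫ := by
    have h3 : ⟪T y, x⟫ = ⟪T x, y⟫ := by rw [hs y x, real_inner_comm]
    simp only [map_add, map_sub, inner_add_left, inner_add_right, inner_sub_left,
      inner_sub_right, h3]
    ring
  have h3 := abs_le.1 (h (x + y))
  have h4 := abs_le.1 (h (x - y))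
  have h5 := parallelogram_law_with_norm ℝ x y
  have h6 : 4 * (‖x‖ * ‖T x‖) ≤ b * (2 * (‖x‖ ^ 2 + ‖x‖ ^ 2)) := by
    rw [← h1, h2]
    have : b * (2 * (‖x‖ ^ 2 + ‖x‖ ^ 2)) = b * ‖x + y‖ ^ 2 + b * ‖x - y‖ ^ 2 := by
      rw [hyn] at h5
      rw [← mul_add]; congr 1; nlinarith
    rw [this]; linarith [h3.2, h4.1]
  have h7 : ‖x‖ * ‖T x‖ ≤ ‖x‖ * (b * ‖x‖) := by nlinarith
  exact le_of_mul_le_mul_left h7 hxn

/-- **the norm of a symmetric matrix from its quadratic form** -/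
theorem norm_Mm_le {a : Mm m} (hs : aᵀ = a) {b : ℝ} (hb : 0 ≤ b)
    (h : ∀ x : Fin m → ℝ, |x ⬝ᵥ (a *ᵥ x)| ≤ b * (x ⬝ᵥ x)) : ‖a‖ ≤ b := by
  have e : ‖a‖ = ‖Matrix.toEuclideanCLM (n := Fin m) (𝕜 := ℝ) a‖ := rfl
  rw [e]
  refine norm_le_of_quad _ (fun x y => ?_) hb fun x => ?_
  · rw [real_inner_comm, Matrix.inner_toEuclideanCLM, Matrix.inner_toEuclideanCLM]
    rw [Matrix.dotProduct_mulVec, ← Matrix.mulVec_transpose, hs, dotProduct_comm]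
  · rw [real_inner_comm, Matrix.inner_toEuclideanCLM, EuclideanSpace.norm_sq_eq]
    have h1 := h x.ofLp
    have h2 : (x.ofLp ⬝ᵥ x.ofLp : ℝ) = ∑ i, ‖x.ofLp i‖ ^ 2 := by
      simp only [dotProduct, Real.norm_eq_abs, sq_abs]
      exact Finset.sum_congr rfl fun i _ => (pow_two _).symm
    rw [← h2]
    simpa using h1

/-- the quadratic form is bounded by the norm -/
theorem dot_le_norm (a : Mm m) (x : Fin m → ℝ) : |x ⬝ᵥ (a *ᵥ x)| ≤ ‖a‖ * (x ⬝ᵥ x) := by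
  set v : EuclideanSpace ℝ (Fin m) := WithLp.toLp 2 x with hv
  have h1 : ⟪v, Matrix.toEuclideanCLM (n := Fin m) (𝕜 := ℝ) a v⟫ = x ⬝ᵥ (a *ᵥ x) := by
    rw [Matrix.inner_toEuclideanCLM]
  have h2 : ‖v‖ ^ 2 = x ⬝ᵥ x := by
    rw [EuclideanSpace.norm_sq_eq]
    simp only [hv, dotProduct, Real.norm_eq_abs, sq_abs]
    exact Finset.sum_congr rfl fun i _ => pow_two _
  rw [← h1, ← h2]
  calc |⟪v, Matrix.toEuclideanCLM (n := Fin m) (𝕜 := ℝ) a v⟫|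
      ≤ ‖v‖ * ‖Matrix.toEuclideanCLM (n := Fin m) (𝕜 := ℝ) a v‖ := abs_real_inner_le_norm _ _
    _ ≤ ‖v‖ * (‖a‖ * ‖v‖) := by
        refine mul_le_mul_of_nonneg_left ?_ (norm_nonneg _)
        exact (Matrix.toEuclideanCLM (n := Fin m) (𝕜 := ℝ) a).le_opNorm v
    _ = _ := by ring

/-- the norm of `a x` -/
theorem norm_mulVec_le (a : Mm m) (x : Fin m → ℝ) :
    (a *ᵥ x) ⬝ᵥ (a *ᵥ x) ≤ ‖a‖ ^ 2 * (x ⬝ᵥ x) := by
  have h2 : ∀ y : Fin m → ℝ, ‖(WithLp.toLp 2 y : EuclideanSpace ℝ (Fin m))‖ ^ 2 = y ⬝ᵥ y := by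
    intro y
    rw [EuclideanSpace.norm_sq_eq]
    simp only [dotProduct, Real.norm_eq_abs, sq_abs]
    exact Finset.sum_congr rfl fun i _ => pow_two _
  rw [← h2, ← h2, ← mul_pow]
  refine pow_le_pow_left₀ (norm_nonneg _) ?_ 2
  have h1 := (Matrix.toEuclideanCLM (n := Fin m) (𝕜 := ℝ) a).le_opNorm (WithLp.toLp 2 x)
  have e : ‖a‖ = ‖Matrix.toEuclideanCLM (n := Fin m) (𝕜 := ℝ) a‖ := rfl
  rw [e]
  simpa only [Matrix.toEuclideanCLM_toLp] using h1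

/-- the entries are bounded by the norm -/
theorem abs_entry_le (a : Mm m) (i j : Fin m) : |a i j| ≤ ‖a‖ := by
  have e : ‖a‖ = ‖Matrix.toEuclideanCLM (n := Fin m) (𝕜 := ℝ) a‖ := rfl
  have h1 := (Matrix.toEuclideanCLM (n := Fin m) (𝕜 := ℝ) a).le_opNorm
    (EuclideanSpace.single j 1)
  have h2 : ‖(EuclideanSpace.single j 1 : EuclideanSpace ℝ (Fin m))‖ = 1 := by
    rw [EuclideanSpace.norm_single]
    simp
  have h3 := PiLp.norm_apply_le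
    (Matrix.toEuclideanCLM (n := Fin m) (𝕜 := ℝ) a (EuclideanSpace.single j 1)) i
  rw [h2, mul_one] at h1
  have h4 : (Matrix.toEuclideanCLM (n := Fin m) (𝕜 := ℝ) a (EuclideanSpace.single j 1)) i
      = a i j := by
    rw [Matrix.ofLp_toEuclideanCLM]
    simp
  rw [h4] at h3
  exact h3.trans h1

/-- `L` commutes with continuous linear maps -/
theorem clm_L {Θ A B : Type*} [NormedRing A] [NormedAlgebra ℝ A] [CompleteSpace A]
    [NormedRing B] [NormedAlgebra ℝ B] [CompleteSpace B] (l : A →L[ℝ] B) {Λ κ Bd : ℝ}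
    (hκ : 0 ≤ κ) (h : κ < 2 * Λ) (hB : 0 ≤ Bd) {G : Θ → ℝ → A} {θ : Θ} (hc : Continuous (G θ))
    (hG : ∀ r, ‖G θ r‖ ≤ Bd * Real.exp (κ * |r|)) (s : ℝ) :
    l (L Λ G θ s) = L Λ (fun θ r => l (G θ r)) θ s := by
  unfold L
  rw [← l.integral_comp_comm (integrand_int hκ h hB hc hG s)]
  simp only [map_smul]

variable {Θ : Type*} [TopologicalSpace Θ] [FirstCountableTopology Θ] {N : Θ → ℝ → Mm m}
  {lam Λ : ℝ}

theorem Tk_bd (hN : HypN lam Λ N) (k : ℕ) (θ : Θ) (r : ℝ) :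
    ‖N θ r + Tk Λ N k θ r * Tk Λ N k θ r‖ ≤
      ((Λ ^ 2 - lam ^ 2) + (Λ - lam) * (Λ - lam)) * Real.exp (0 * |r|) := by
  have hle : 0 ≤ Λ - lam := sub_nonneg.2 hN.le
  rw [zero_mul, Real.exp_zero, mul_one]
  refine (norm_add_le _ _).trans (add_le_add (hN.bound θ r) ((norm_mul_le _ _).trans ?_))
  exact mul_le_mul (Tk_le hN k θ r) (Tk_le hN k θ r) (norm_nonneg _) hle

theorem Tk_B0 (hN : HypN lam Λ N) : 0 ≤ (Λ ^ 2 - lam ^ 2) + (Λ - lam) * (Λ - lam) := by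
  have := hN.lam_pos
  nlinarith [hN.le]

theorem Tk_G (hN : HypN lam Λ N) (k : ℕ) :
    Continuous (Function.uncurry fun θ r => N θ r + Tk Λ N k θ r * Tk Λ N k θ r) :=
  hN.cont.add ((Tk_cont hN k).mul (Tk_cont hN k))

theorem cont_slice {X Y Z : Type*} [TopologicalSpace X] [TopologicalSpace Y] [TopologicalSpace Z]
    {G : X → Y → Z} (h : Continuous (Function.uncurry G)) (x : X) : Continuous (G x) :=
  h.comp (continuous_const.prodMk continuous_id)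

theorem Λ2_pos (hN : HypN lam Λ N) : (0 : ℝ) < 2 * Λ := by
  have := hN.lam_pos
  linarith [hN.le]

theorem clm_Tk (hN : HypN lam Λ N) {B : Type*} [NormedRing B] [NormedAlgebra ℝ B]
    [CompleteSpace B] (l : Mm m →L[ℝ] B) (k : ℕ) (θ : Θ) (s : ℝ) :
    l (Tk Λ N (k + 1) θ s) = L Λ (fun θ r => l (N θ r + Tk Λ N k θ r * Tk Λ N k θ r)) θ s :=
  clm_L (G := fun θ r => N θ r + Tk Λ N k θ r * Tk Λ N k θ r) l le_rfl (Λ2_pos hN) (Tk_B0 hN)
    (cont_slice (Tk_G hN k) θ) (Tk_bd hN k θ) s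

theorem Tk_symm (hN : HypN lam Λ N) (hs : ∀ θ r, (N θ r)ᵀ = N θ r) (k : ℕ) :
    ∀ θ s, (Tk Λ N k θ s)ᵀ = Tk Λ N k θ s := by
  induction k with
  | zero => intro θ s; simp [Tk]
  | succ k ih =>
    intro θ s
    have h1 := clm_Tk hN trM k θ s
    have h2 := clm_Tk hN (ContinuousLinearMap.id ℝ (Mm m)) k θ s
    simp only [trM_apply, ContinuousLinearMap.id_apply] at h1 h2
    rw [h1, h2]
    congr 1
    funext θ r
    rw [Matrix.transpose_add, Matrix.transpose_mul, hs, ih]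

theorem Tk_flow {φ : ℝ → Θ → Θ} (hφ : ∀ θ t r, N (φ t θ) r = N θ (r + t))
    (k : ℕ) : ∀ θ t s, Tk Λ N k (φ t θ) s = Tk Λ N k θ (s + t) := by
  induction k with
  | zero => intro θ t s; rfl
  | succ k ih =>
    intro θ t s
    simp only [Tk, L]
    refine integral_congr_ae (Eventually.of_forall fun u => ?_)
    simp only [hφ, ih]
    rw [show s - u + t = s + t - u by ring]

theorem T_flow (hN : HypN lam Λ N) {φ : ℝ → Θ → Θ} (hφ : ∀ θ t r, N (φ t θ) r = N θ (r + t))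
    (θ : Θ) (t s : ℝ) : T Λ N (φ t θ) s = T Λ N θ (s + t) :=
  tendsto_nhds_unique (Tk_tendsto hN (φ t θ) s)
    ((Tk_tendsto hN θ (s + t)).congr fun k => (Tk_flow hφ k θ t s).symm)

theorem T_symm (hN : HypN lam Λ N) (hs : ∀ θ r, (N θ r)ᵀ = N θ r) (θ : Θ) (s : ℝ) :
    (T Λ N θ s)ᵀ = T Λ N θ s := by
  have h1 := ((trM (m := m)).continuous.tendsto _).comp (Tk_tendsto hN θ s)
  have h2 : Tendsto (fun k => Tk Λ N k θ s) atTop (𝓝 (trM (T Λ N θ s))) :=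
    h1.congr fun k => Tk_symm hN hs k θ s
  exact tendsto_nhds_unique h2 (Tk_tendsto hN θ s)

/-- `T ≥ 0` if `N ≥ 0` -/
theorem T_nonneg (hN : HypN lam Λ N) (hs : ∀ θ r, (N θ r)ᵀ = N θ r)
    (h0 : ∀ θ r (x : Fin m → ℝ), 0 ≤ x ⬝ᵥ (N θ r *ᵥ x)) (θ : Θ) (s : ℝ) (x : Fin m → ℝ) :
    0 ≤ x ⬝ᵥ (T Λ N θ s *ᵥ x) := by
  rw [T_eq hN θ s, ← qM_apply]
  have hb : ∀ r, ‖N θ r + T Λ N θ r * T Λ N θ r‖ ≤
      ((Λ ^ 2 - lam ^ 2) + (Λ - lam) * (Λ - lam)) * Real.exp (0 * |r|) := by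
    intro r
    have hle : 0 ≤ Λ - lam := sub_nonneg.2 hN.le
    rw [zero_mul, Real.exp_zero, mul_one]
    refine (norm_add_le _ _).trans (add_le_add (hN.bound θ r) ((norm_mul_le _ _).trans ?_))
    exact mul_le_mul (T_le hN θ r) (T_le hN θ r) (norm_nonneg _) hle
  rw [clm_L (G := fun θ r => N θ r + T Λ N θ r * T Λ N θ r) (qM x) le_rfl (Λ2_pos hN)
    (Tk_B0 hN) ((cont_slice hN.cont θ).add ((T_cont' hN θ).mul (T_cont' hN θ))) hb s]
  unfold L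
  refine integral_nonneg fun u => ?_
  simp only [smul_eq_mul]
  refine mul_nonneg (Real.exp_pos _).le ?_
  rw [qM_apply, Matrix.add_mulVec, dotProduct_add]
  refine add_nonneg (h0 θ (s - u) x) ?_
  have h2 := T_symm hN hs θ (s - u)
  set a := T Λ N θ (s - u)
  rw [← Matrix.mulVec_mulVec, Matrix.dotProduct_mulVec, ← Matrix.mulVec_transpose, h2]
  exact dot_self_nonneg _

/-- **the unstable solution of the Riccati equation `U' + U² = K` for `λ² ≤ K ≤ Λ²`** -/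
theorem exists_ric {K : Θ → Mm m} {φ : ℝ → Θ → Θ} (hφ : Continuous fun q : ℝ × Θ => φ q.1 q.2)
    (hadd : ∀ s t θ, φ (s + t) θ = φ s (φ t θ)) (hK : Continuous K)
    (hs : ∀ θ, (K θ)ᵀ = K θ) (hl : 0 < lam) (hle : lam ≤ Λ)
    (hlo : ∀ θ (x : Fin m → ℝ), lam ^ 2 * (x ⬝ᵥ x) ≤ x ⬝ᵥ (K θ *ᵥ x))
    (hhi : ∀ θ (x : Fin m → ℝ), x ⬝ᵥ (K θ *ᵥ x) ≤ Λ ^ 2 * (x ⬝ᵥ x)) :
    ∃ U : Θ → Mm m, Continuous U ∧ (∀ θ, (U θ)ᵀ = U θ) ∧
      (∀ θ (x : Fin m → ℝ), lam * (x ⬝ᵥ x) ≤ x ⬝ᵥ (U θ *ᵥ x)) ∧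
      (∀ θ (x : Fin m → ℝ), x ⬝ᵥ (U θ *ᵥ x) ≤ Λ * (x ⬝ᵥ x)) ∧ (∀ θ, ‖U θ‖ ≤ Λ) ∧
      ∀ θ r, HasDerivAt (fun s => U (φ s θ)) (K (φ r θ) - U (φ r θ) * U (φ r θ)) r := by
  set N : Θ → ℝ → Mm m := fun θ r => (Λ ^ 2) • (1 : Mm m) - K (φ r θ) with hNdef
  have hq1 : ∀ (c : ℝ) (x : Fin m → ℝ), x ⬝ᵥ ((c • (1 : Mm m)) *ᵥ x) = c * (x ⬝ᵥ x) := by
    intro c x
    rw [Matrix.smul_mulVec, Matrix.one_mulVec, dotProduct_smul, smul_eq_mul]
  have hqN : ∀ θ r (x : Fin m → ℝ), x ⬝ᵥ (N θ r *ᵥ x) =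
      Λ ^ 2 * (x ⬝ᵥ x) - x ⬝ᵥ (K (φ r θ) *ᵥ x) := by
    intro θ r x
    rw [hNdef, Matrix.sub_mulVec, dotProduct_sub, hq1]
  have hNs : ∀ θ r, (N θ r)ᵀ = N θ r := by
    intro θ r
    rw [hNdef, Matrix.transpose_sub, Matrix.transpose_smul, Matrix.transpose_one, hs]
  have hN : HypN lam Λ N :=
    { lam_pos := hl
      le := hle
      cont := continuous_const.sub
        (hK.comp (hφ.comp (continuous_snd.prodMk continuous_fst)))
      bound := fun θ r => norm_Mm_le (hNs θ r) (by nlinarith) fun x => by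
        have h1 := hlo (φ r θ) x
        have h2 := hhi (φ r θ) x
        rw [hqN, abs_of_nonneg (by linarith)]
        linarith }
  have hflow : ∀ θ t r, N (φ t θ) r = N θ (r + t) := by
    intro θ t r
    rw [hNdef]
    simp only [hadd]
  have hN0 : ∀ θ r (x : Fin m → ℝ), 0 ≤ x ⬝ᵥ (N θ r *ᵥ x) := fun θ r x => by
    rw [hqN]
    linarith [hhi (φ r θ) x]
  have hTc : Continuous (Function.uncurry (T Λ N)) := T_cont hN
  set U : Θ → Mm m := fun θ => Λ • (1 : Mm m) - T Λ N θ 0 with hU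
  have hUf : ∀ s θ, U (φ s θ) = Λ • (1 : Mm m) - T Λ N θ s := by
    intro s θ
    rw [hU]
    simp only
    rw [T_flow hN hflow θ s 0, zero_add]
  have hUs : ∀ θ, (U θ)ᵀ = U θ := fun θ => by
    rw [hU]
    simp only
    rw [Matrix.transpose_sub, Matrix.transpose_smul, Matrix.transpose_one, T_symm hN hNs]
  have hUq : ∀ θ (x : Fin m → ℝ), x ⬝ᵥ (U θ *ᵥ x) = Λ * (x ⬝ᵥ x) - x ⬝ᵥ (T Λ N θ 0 *ᵥ x) := by
    intro θ x
    rw [hU]
    simp only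
    rw [Matrix.sub_mulVec, dotProduct_sub, hq1]
  have hlow : ∀ θ (x : Fin m → ℝ), lam * (x ⬝ᵥ x) ≤ x ⬝ᵥ (U θ *ᵥ x) := fun θ x => by
    have h1 := (abs_le.1 (dot_le_norm (T Λ N θ 0) x)).2
    have h2 : ‖T Λ N θ 0‖ * (x ⬝ᵥ x) ≤ (Λ - lam) * (x ⬝ᵥ x) :=
      mul_le_mul_of_nonneg_right (T_le hN θ 0) (dot_self_nonneg x)
    rw [hUq]
    nlinarith
  have hhigh : ∀ θ (x : Fin m → ℝ), x ⬝ᵥ (U θ *ᵥ x) ≤ Λ * (x ⬝ᵥ x) := fun θ x => by
    rw [hUq]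
    linarith [T_nonneg hN hNs hN0 θ 0 x]
  refine ⟨U, continuous_const.sub (hTc.comp (continuous_id.prodMk continuous_const)), hUs,
    hlow, hhigh, fun θ => norm_Mm_le (hUs θ) (hl.le.trans hle) fun x => ?_, fun θ r => ?_⟩
  · rw [abs_of_nonneg]
    · exact hhigh θ x
    · exact (mul_nonneg hl.le (dot_self_nonneg x)).trans (hlow θ x)
  · have h1 := (hasDerivAt_const r (Λ • (1 : Mm m))).sub (hasDerivAt_T hN θ r)
    have h3 : (fun s => U (φ s θ)) = fun s => Λ • (1 : Mm m) - T Λ N θ s := by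
      funext s
      rw [hUf]
    rw [h3]
    refine h1.congr_deriv ?_
    rw [hUf, hNdef]
    simp only [sub_mul, mul_sub, smul_mul_assoc, mul_smul_comm, one_mul, mul_one]
    have : (Λ ^ 2) • (1 : Mm m) = (Λ * Λ) • (1 : Mm m) := by rw [pow_two]
    rw [this]
    module

end Vale.Agent.P207.H832.N4
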